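import Vale.Agent.P064_h5.Main

/-!
The containment threshold of every graph `H` is at most a `log² n` factor above its
expectation threshold.
-/

namespace Vale.Agent.Results.P064.LogSquared

open Vale.Agent.P064h5

theorem result : ∀ n : ℕ, 2 ≤ n → ∀ (V : Type) [Fintype V] (H : SimpleGraph V),
    Fintype.card V ≤ n → H ≠ ⊥ →
      pc n H ≤ 4300 * pE n H * (Real.log n) ^ 2 := by
  intro n hn V _ H hV _
  exact pc_le_log_sq hn H hV

end Vale.Agent.Results.P064.LogSquared
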