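import Vale.Agent.P064_h5.Full

/-!
The second Kahn-Kalai conjecture: the containment threshold of every graph `H` is at most a
constant times `log n` times its expectation threshold.
-/

namespace Vale.Agent.Results.P064.SecondKahnKalai

open Vale.Agent.P064h5

theorem result : ∃ C : ℝ, ∀ n : ℕ, 2 ≤ n → ∀ (V : Type) [Fintype V] (H : SimpleGraph V),
    Fintype.card V ≤ n → H ≠ ⊥ →
      IsLeast {p : ℝ | 0 ≤ p ∧ p ≤ 1 ∧ 1 / 2 ≤ containProb n p H} (pc n H) ∧
      IsLeast {p : ℝ | 0 ≤ p ∧ p ≤ 1 ∧ ∀ F : H.Subgraph,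
        1 / 2 ≤ gnpExp n p (fun G => (G.copyCount F.coe : ℝ))} (pE n H) ∧
      pc n H ≤ C * pE n H * Real.log n := by
  refine ⟨10 ^ 13, ?_⟩
  intro n hn V _ H hV hH
  exact ⟨isLeast_pc H hV, isLeast_pE H hV, pc_le_log hn hH hV⟩

end Vale.Agent.Results.P064.SecondKahnKalai
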